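import Vale.Agent.P146.All

open MeasureTheory ProbabilityTheory Vale.Agent.P146

/-- Polynomial superconcentration of the SK free energy at every temperature. -/
theorem Vale.Agent.Results.P146.Poly.result :
    ∃ C : ℝ, ∀ (β : ℝ) (n : ℕ), 1 ≤ n →
      variance (freeEnergy n β) (disorder n) ≤ C * β ^ 2 * (n : ℝ) ^ (4 / 5 : ℝ) :=
  Vale.Agent.P146.main
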