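import Vale.Agent.P146.All2

open MeasureTheory ProbabilityTheory Vale.Agent.P146

/-- The variance of the SK free energy is at most `n ^ (2/3 + o(1))` at every temperature. -/
theorem Vale.Agent.Results.P146.TwoThirds.result :
    ∀ (β ε : ℝ), 0 < ε → ∃ C : ℝ, ∀ n : ℕ, 1 ≤ n →
      variance (freeEnergy n β) (disorder n) ≤ C * (n : ℝ) ^ (2 / 3 + ε) :=
  Vale.Agent.P146.main2
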